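import Mathlib

namespace Vale.Agent.Lib.P183

/-- Congruences of the unary algebra `(A; ops i, i : ι)`: equivalence relations on `A`
compatible with every operation. -/
def UCon {A ι : Type} (ops : ι → A → A) : Type :=
  {r : Setoid A // ∀ i a b, r a b → r (ops i a) (ops i b)}

instance {A ι : Type} (ops : ι → A → A) : PartialOrder (UCon ops) :=
  inferInstanceAs (PartialOrder {r : Setoid A // ∀ i a b, r a b → r (ops i a) (ops i b)})

end Vale.Agent.Lib.P183
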