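import Mathlib
import Vale.Agent.Lib.P183.Defs

namespace Vale.Agent.Lib.P183

/-- A setoid compatible with a family of permutations of a finite set is compatible with every
element of the group they generate. -/
theorem compat_closure {A ι : Type} [Finite A] (σ : ι → Equiv.Perm A) (r : Setoid A)
    (hr : ∀ i a b, r a b → r (σ i a) (σ i b)) :
    ∀ g ∈ Subgroup.closure (Set.range σ), ∀ a b, r a b → r (g a) (g b) := by
  intro g hg
  induction hg using Subgroup.closure_induction with
  | mem x hx =>
    obtain ⟨i, rfl⟩ := hx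
    exact hr i
  | one => intro a b h; simpa using h
  | mul x y _ _ hx hy =>
    intro a b h
    simpa [Equiv.Perm.mul_apply] using hx _ _ (hy _ _ h)
  | inv x _ hx =>
    have hpow : ∀ n : ℕ, ∀ a b, r a b → r ((x ^ n) a) ((x ^ n) b) := by
      intro n
      induction n with
      | zero => intro a b h; simpa using h
      | succ n ih =>
        intro a b h
        rw [pow_succ']
        simpa [Equiv.Perm.mul_apply] using hx _ _ (ih _ _ h)
    have hinv : x⁻¹ = x ^ (orderOf x - 1) := by
      have hpos : 0 < orderOf x := orderOf_pos x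
      have h1 : x * x ^ (orderOf x - 1) = 1 := by
        rw [← pow_succ', Nat.sub_add_cancel hpos, pow_orderOf_eq_one]
      exact inv_eq_of_mul_eq_one_right h1
    rw [hinv]
    exact hpow _

/-- For a transitive permutation group `G = ⟨σ i⟩` on a finite set `A`, the congruences of the
unary algebra `(A; σ i)` form a poset isomorphic to the interval `[G_{p0}, G]` of the subgroup
lattice of `G`. -/
theorem ucon_orderIso_interval {A ι : Type} [Finite A] (σ : ι → Equiv.Perm A) (p0 : A)
    (htr : ∀ a, ∃ g ∈ Subgroup.closure (Set.range σ), g p0 = a) :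
    Nonempty (UCon (fun i => (σ i : A → A)) ≃o
      Set.Ici (MulAction.stabilizer (Subgroup.closure (Set.range σ)) p0)) := by
  classical
  set G := Subgroup.closure (Set.range σ) with hG
  -- transitivity in terms of the subgroup type
  have htr' : ∀ a, ∃ g : G, g • p0 = a := by
    intro a
    obtain ⟨g, hg, h⟩ := htr a
    exact ⟨⟨g, hg⟩, h⟩
  -- invariance
  have hinv : ∀ (r : UCon (fun i => (σ i : A → A))) (g : G) (a b : A),
      r.1 a b ↔ r.1 (g • a) (g • b) := by
    intro r g a b
    constructor
    · intro h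
      exact compat_closure σ r.1 r.2 g.1 g.2 a b h
    · intro h
      have := compat_closure σ r.1 r.2 (g⁻¹).1 (g⁻¹).2 _ _ h
      have e1 : ((g⁻¹ : G) : Equiv.Perm A) (g • a) = a := by
        change (g⁻¹ : G) • (g • a) = a
        rw [inv_smul_smul]
      have e2 : ((g⁻¹ : G) : Equiv.Perm A) (g • b) = b := by
        change (g⁻¹ : G) • (g • b) = b
        rw [inv_smul_smul]
      rwa [e1, e2] at this
  -- the subgroup attached to a congruence
  let toSub : UCon (fun i => (σ i : A → A)) → Subgroup G := fun r =>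
    { carrier := {g | r.1 p0 (g • p0)}
      one_mem' := by
        change r.1 p0 ((1 : G) • p0)
        rw [one_smul]
      mul_mem' := by
        intro g h hg hh
        change r.1 p0 ((g * h) • p0)
        rw [mul_smul]
        exact r.1.trans hg ((hinv r g _ _).1 hh)
      inv_mem' := by
        intro g hg
        change r.1 p0 (g⁻¹ • p0)
        have := (hinv r g⁻¹ _ _).1 hg
        rw [inv_smul_smul] at this
        exact r.1.symm this }
  have mem_toSub : ∀ r (g : G), g ∈ toSub r ↔ r.1 p0 (g • p0) := fun r g => Iff.rfl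
  have toSub_ge : ∀ r, MulAction.stabilizer G p0 ≤ toSub r := by
    intro r g hg
    rw [mem_toSub, MulAction.mem_stabilizer_iff.1 hg]
  -- the relation attached to a subgroup
  have key : ∀ (K : Subgroup G), MulAction.stabilizer G p0 ≤ K → ∀ (g h g' h' : G),
      g • p0 = g' • p0 → h • p0 = h' • p0 → g⁻¹ * h ∈ K → g'⁻¹ * h' ∈ K := by
    intro K hK g h g' h' e1 e2 hm
    have a1 : g'⁻¹ * g ∈ K := by
      apply hK
      rw [MulAction.mem_stabilizer_iff, mul_smul, e1, inv_smul_smul]
    have a2 : h⁻¹ * h' ∈ K := by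
      apply hK
      rw [MulAction.mem_stabilizer_iff, mul_smul, ← e2, inv_smul_smul]
    have : g'⁻¹ * h' = (g'⁻¹ * g) * (g⁻¹ * h) * (h⁻¹ * h') := by group
    rw [this]
    exact K.mul_mem (K.mul_mem a1 hm) a2
  let toRel : (K : Subgroup G) → MulAction.stabilizer G p0 ≤ K → Setoid A := fun K hK =>
    { r := fun a b => ∃ g h : G, g • p0 = a ∧ h • p0 = b ∧ g⁻¹ * h ∈ K
      iseqv :=
        { refl := by
            intro a
            obtain ⟨g, hg⟩ := htr' a
            exact ⟨g, g, hg, hg, by simp [K.one_mem]⟩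
          symm := by
            rintro a b ⟨g, h, hg, hh, hm⟩
            refine ⟨h, g, hh, hg, ?_⟩
            have : h⁻¹ * g = (g⁻¹ * h)⁻¹ := by group
            rw [this]
            exact K.inv_mem hm
          trans := by
            rintro a b c ⟨g, h, hg, hh, hm⟩ ⟨h', k, hh', hk, hm'⟩
            refine ⟨g, k, hg, hk, ?_⟩
            have a2 : h⁻¹ * h' ∈ K := by
              apply hK
              rw [MulAction.mem_stabilizer_iff, mul_smul, hh', ← hh, inv_smul_smul]
            have : g⁻¹ * k = (g⁻¹ * h) * (h⁻¹ * h') * (h'⁻¹ * k) := by group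
            rw [this]
            exact K.mul_mem (K.mul_mem hm a2) hm' } }
  have toRel_iff : ∀ K hK a b, (toRel K hK) a b ↔
      ∃ g h : G, g • p0 = a ∧ h • p0 = b ∧ g⁻¹ * h ∈ K := fun K hK a b => Iff.rfl
  have toRel_compat : ∀ K hK i a b, (toRel K hK) a b → (toRel K hK) (σ i a) (σ i b) := by
    intro K hK i a b hab
    obtain ⟨g, h, hg, hh, hm⟩ := (toRel_iff K hK a b).1 hab
    have hs : σ i ∈ G := Subgroup.subset_closure ⟨i, rfl⟩
    refine (toRel_iff K hK _ _).2 ⟨⟨σ i, hs⟩ * g, ⟨σ i, hs⟩ * h, ?_, ?_, ?_⟩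
    · rw [mul_smul, hg]; rfl
    · rw [mul_smul, hh]; rfl
    · have : ((⟨σ i, hs⟩ : G) * g)⁻¹ * (⟨σ i, hs⟩ * h) = g⁻¹ * h := by group
      rw [this]
      exact hm
  refine ⟨{ toFun := fun r => ⟨toSub r, toSub_ge r⟩
            invFun := fun K => ⟨toRel K.1 (Set.mem_Ici.1 K.2), toRel_compat K.1 (Set.mem_Ici.1 K.2)⟩
            left_inv := ?_
            right_inv := ?_
            map_rel_iff' := ?_ }⟩
  · intro r
    apply Subtype.ext
    apply Setoid.ext
    intro a b
    change (toRel (toSub r) (toSub_ge r)) a b ↔ r.1 a b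
    refine (toRel_iff _ (toSub_ge r) a b).trans ?_
    constructor
    · rintro ⟨g, h, rfl, rfl, hm⟩
      rw [mem_toSub, mul_smul] at hm
      have := (hinv r g _ _).1 hm
      rwa [smul_inv_smul] at this
    · intro hab
      obtain ⟨g, rfl⟩ := htr' a
      obtain ⟨h, rfl⟩ := htr' b
      refine ⟨g, h, rfl, rfl, ?_⟩
      rw [mem_toSub, mul_smul]
      have := (hinv r g⁻¹ _ _).1 hab
      rwa [inv_smul_smul] at this
  · intro K
    apply Subtype.ext
    apply Subgroup.ext
    intro g
    have hK : MulAction.stabilizer G p0 ≤ K.1 := Set.mem_Ici.1 K.2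
    change (toRel K.1 hK) p0 (g • p0) ↔ g ∈ K.1
    refine (toRel_iff _ hK _ _).trans ?_
    constructor
    · rintro ⟨g', h', e1, e2, hm⟩
      have := key K.1 hK g' h' 1 g (by rw [e1, one_smul]) e2 hm
      simpa using this
    · intro hg
      exact ⟨1, g, one_smul _ _, rfl, by simpa using hg⟩
  · intro r r'
    change toSub r ≤ toSub r' ↔ r.1 ≤ r'.1
    constructor
    · intro hle
      rw [Setoid.le_def]
      intro a b hab
      obtain ⟨g, rfl⟩ := htr' a
      obtain ⟨h, rfl⟩ := htr' b
      have h1 : g⁻¹ * h ∈ toSub r := by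
        rw [mem_toSub, mul_smul]
        have := (hinv r g⁻¹ _ _).1 hab
        rwa [inv_smul_smul] at this
      have h2 := hle h1
      rw [mem_toSub, mul_smul] at h2
      have := (hinv r' g _ _).1 h2
      rwa [smul_inv_smul] at this
    · intro hle g hg
      rw [mem_toSub] at hg ⊢
      exact (Setoid.le_def.1 hle) hg

end Vale.Agent.Lib.P183
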