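import Vale.Agent.Lib.P183.Data0

/-! Boolean checkers, written with raw `Nat` functions and recursors so that the kernel
evaluates them quickly. -/

namespace Vale.Agent.Lib.P183

noncomputable section

def look (T w i m : Nat) : Nat := Nat.land (Nat.shiftRight T (Nat.mul w i)) m

def opX (i x : Nat) : Nat := Nat.mod (look TX 6 (Nat.add (Nat.mul 36 i) x) 63) 36
/-- selection among ten values by unary case analysis -/
def sel10 (a0 a1 a2 a3 a4 a5 a6 a7 a8 a9 i : Nat) : Nat :=
  Nat.rec (motive := fun _ => Nat) a0 (fun i _ =>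
  Nat.rec (motive := fun _ => Nat) a1 (fun i _ =>
  Nat.rec (motive := fun _ => Nat) a2 (fun i _ =>
  Nat.rec (motive := fun _ => Nat) a3 (fun i _ =>
  Nat.rec (motive := fun _ => Nat) a4 (fun i _ =>
  Nat.rec (motive := fun _ => Nat) a5 (fun i _ =>
  Nat.rec (motive := fun _ => Nat) a6 (fun i _ =>
  Nat.rec (motive := fun _ => Nat) a7 (fun i _ =>
  Nat.rec (motive := fun _ => Nat) a8 (fun _ _ => a9) i) i) i) i) i) i) i) i) i

def rowY (i : Nat) : Nat := sel10 TY0 TY1 TY2 TY3 TY4 TY5 TY6 TY7 TY8 TY9 i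
def opY (i y : Nat) : Nat := Nat.mod (look (rowY i) 10 y 1023) 960
def opZ (i z : Nat) : Nat := look TZ 7 (Nat.add (Nat.mul 120 i) z) 127
def opW (i x a : Nat) : Nat := look TW 3 (Nat.add (Nat.mul 288 i) (Nat.add (Nat.mul 8 x) a)) 7
def rowD (x : Nat) : Nat := Nat.mod (Nat.shiftRight DT (Nat.mul 6720 x)) (Nat.pow 2 6720)
def rowA (x : Nat) : Nat := Nat.mod (Nat.shiftRight AT (Nat.mul 2880 x)) (Nat.pow 2 2880)
def kD (x y : Nat) : Nat := look (rowD x) 7 y 127
def kA (x y : Nat) : Nat := look (rowA x) 3 y 7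

def band (a b : Bool) : Bool := Bool.rec false b a
def bimp (a b : Bool) : Bool := Bool.rec true b a

def allB (n : Nat) (f : Nat → Bool) : Bool :=
  Nat.rec (motive := fun _ => Bool) true (fun k ih => band (f k) ih) n

def evX (b n : Nat) : Nat → Nat → Nat :=
  Nat.rec (motive := fun _ => Nat → Nat → Nat) (fun _ x => x)
    (fun _ ih w x => ih (Nat.div w b) (opX (Nat.mod w b) x)) n

def evY (b n : Nat) : Nat → Nat → Nat :=
  Nat.rec (motive := fun _ => Nat → Nat → Nat) (fun _ y => y)
    (fun _ ih w y => ih (Nat.div w b) (opY (Nat.mod w b) y)) n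

def bit (M l : Nat) : Bool := Nat.beq (Nat.land (Nat.shiftRight M l) 1) 1

def lettersIn (M b n : Nat) : Nat → Bool :=
  Nat.rec (motive := fun _ => Nat → Bool) (fun _ => true)
    (fun _ ih w => band (bit M (Nat.mod w b)) (ih (Nat.div w b))) n

def key1 (t x : Nat) : Nat := Bool.rec 0 x (Nat.ble t 3)

def key2 (t x y : Nat) : Nat :=
  match t with
  | 0 => y
  | 1 => kA x y
  | 2 => kD x y
  | 3 => 0
  | 4 => kD x y
  | 5 => y
  | _ => 0

def relB (t x y x' y' : Nat) : Bool :=
  band (Nat.beq (key1 t x) (key1 t x')) (Nat.beq (key2 t x y) (key2 t x' y'))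

def MMf (t : Nat) : Nat := look MMT 10 t 1023
def MBf (t : Nat) : Nat := look MBT 10 t 1023
def leB (s t : Nat) : Bool := bit LET (Nat.add (Nat.mul 7 s) t)
def joinN (s t : Nat) : Nat := look JOT 3 (Nat.add (Nat.mul 7 s) t) 7
def repX (i : Nat) : Nat := Nat.shiftRight (look RXY 16 i 65535) 10
def repY (i : Nat) : Nat := Nat.land (look RXY 16 i 65535) 1023
def rX (t : Nat) : Nat := Nat.rec (motive := fun _ => Nat) 0 (fun k _ => opX (Nat.add k 4) 0) t
def rY (t : Nat) : Nat := Nat.rec (motive := fun _ => Nat) 0 (fun k _ => opY (Nat.add k 4) 0) t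
def invL (i : Nat) : Nat := look 0x9876542301 4 i 15

def chkW (n w x y : Nat) : Bool :=
  band (Nat.beq (evX 10 n w 0) x) (band (Nat.beq (evY 10 n w 0) y)
    (allB 7 (fun t => bimp (relB t 0 0 x y) (lettersIn (MMf t) 10 n w))))

def chkH (idx n w x y : Nat) : Bool :=
  band (Nat.blt idx 847) (band (Nat.beq (evX 4 n w x) (repX idx)) (Nat.beq (evY 4 n w y) (repY idx)))

def chkRec (r x y : Nat) : Bool :=
  band (chkW (Nat.land r 15) (Nat.land (Nat.shiftRight r 4) 268435455) x y)
    (chkH (Nat.land (Nat.shiftRight r 32) 1023) (Nat.land (Nat.shiftRight r 42) 7)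
      (Nat.shiftRight r 45) x y)

def chkRowQ (row x c : Nat) : Bool :=
  allB 240 (fun k => chkRec (look row 64 k 18446744073709551615) x (Nat.add (Nat.mul 240 c) k))

def stepOK (kind n w px py : Nat) : Bool :=
  match kind with
  | 0 => band (Nat.beq (evX 10 n w 0) 0) (Nat.beq (evY 10 n w 0) 0)
  | 1 => band (Nat.beq (evX 10 n w 0) px) (Nat.beq (evY 10 n w 0) py)
  | _ => band (Nat.beq (evX 10 n w px) 0) (Nat.beq (evY 10 n w py) 0)

def pathB (px py tx ty m : Nat) : Nat → Nat → Nat → Bool :=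
  Nat.rec (motive := fun _ => Nat → Nat → Nat → Bool)
    (fun _ ux uy => band (Nat.beq ux tx) (Nat.beq uy ty))
    (fun _ ih bits ux uy =>
      band (stepOK (Nat.land bits 3) (Nat.land (Nat.shiftRight bits 2) 15)
              (Nat.land (Nat.shiftRight bits 6) 4398046511103) px py)
        (ih (Nat.shiftRight bits 48)
          (evX 10 (Nat.land (Nat.shiftRight bits 2) 15)
              (Nat.land (Nat.shiftRight bits 6) 4398046511103) ux)
          (evY 10 (Nat.land (Nat.shiftRight bits 2) 15)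
              (Nat.land (Nat.shiftRight bits 6) 4398046511103) uy))) m

def chkRepRec (r px py : Nat) : Bool :=
  band (Nat.blt (Nat.land r 7) 7) (band (relB (Nat.land r 7) 0 0 px py)
    (pathB px py (rX (Nat.land r 7)) (rY (Nat.land r 7)) (Nat.land (Nat.shiftRight r 3) 7)
      (Nat.shiftRight r 32) 0 0))

def chkRep (idx : Nat) : Bool :=
  chkRepRec (Nat.mod (Nat.shiftRight RC (Nat.mul 272 idx)) (Nat.pow 2 272)) (repX idx) (repY idx)

def chkRepQ (n c : Nat) : Bool := allB n (fun k => chkRep (Nat.add (Nat.mul 50 c) k))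

def chkInv : Bool :=
  allB 10 (fun i => band (Nat.blt (invL i) 10) (band (Nat.beq (invL (invL i)) i)
    (band (allB 36 (fun x => Nat.beq (opX (invL i) (opX i x)) x))
      (allB 960 (fun y => Nat.beq (opY (invL i) (opY i y)) y)))))

def chkFixP0 : Bool := allB 4 (fun l => band (Nat.beq (opX l 0) 0) (Nat.beq (opY l 0) 0))

def chkD (i x : Nat) : Bool :=
  allB 960 (fun y => Nat.beq (kD (opX i x) (opY i y)) (opZ i (kD x y)))

def chkA (i x : Nat) : Bool :=
  allB 960 (fun y => Nat.beq (kA (opX i x) (opY i y)) (opW i x (kA x y)))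

def bor (a b : Bool) : Bool := Bool.rec b true a

def chkFixRec (r t l : Nat) : Bool :=
  bimp (bit (MMf t) l) (bor (Nat.blt l 4) (bor (Nat.beq l (Nat.add t 3))
    (band (lettersIn (MBf t) 10 (Nat.land r 15) (Nat.shiftRight r 4))
      (band (Nat.beq (evX 10 (Nat.land r 15) (Nat.shiftRight r 4) 0) (opX l 0))
        (Nat.beq (evY 10 (Nat.land r 15) (Nat.shiftRight r 4) 0) (opY l 0))))))

def chkFix : Bool :=
  allB 7 (fun t => allB 10 (fun l =>
    chkFixRec (look FWT 48 (Nat.add (Nat.mul 10 t) l) 281474976710655) t l))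

def chkMb : Bool :=
  allB 7 (fun t => allB 10 (fun l =>
    bimp (bit (MBf t) l) (bor (Nat.blt l 4) (band (Nat.blt 0 t) (Nat.beq l (Nat.add t 3))))))

def chkWitRec (s t qx qy rx ry : Nat) : Bool :=
  band (Nat.blt qx 36) (band (Nat.blt qy 960) (band (Nat.blt rx 36) (band (Nat.blt ry 960)
    (band (relB s 0 0 qx qy) (band (relB t qx qy rx ry)
      (allB 7 (fun u => bimp (relB u 0 0 rx ry) (leB (joinN s t) u))))))))

def witQX (s t : Nat) : Nat := Nat.land (look WITT 64 (Nat.add (Nat.mul 7 s) t) 18446744073709551615) 65535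
def witQY (s t : Nat) : Nat := Nat.land (Nat.shiftRight (look WITT 64 (Nat.add (Nat.mul 7 s) t) 18446744073709551615) 16) 65535
def witRX (s t : Nat) : Nat := Nat.land (Nat.shiftRight (look WITT 64 (Nat.add (Nat.mul 7 s) t) 18446744073709551615) 32) 65535
def witRY (s t : Nat) : Nat := Nat.shiftRight (look WITT 64 (Nat.add (Nat.mul 7 s) t) 18446744073709551615) 48

def chkWit : Bool :=
  allB 7 (fun s => allB 7 (fun t => chkWitRec s t (witQX s t) (witQY s t) (witRX s t) (witRY s t)))

def beqB (a b : Bool) : Bool := Bool.rec (Bool.rec true false b) b a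

def chkOrd : Bool :=
  allB 7 (fun s => allB 7 (fun t => beqB (relB t 0 0 (rX s) (rY s)) (leB s t)))

end

end Vale.Agent.Lib.P183
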