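import Mathlib
import Vale.Agent.Lib.P183.Defs
import Vale.Agent.Lib.P183.Check

/-! Elementary lemmas about the Boolean checkers and the unary algebra on `Fin 36 × Fin 960`. -/

namespace Vale.Agent.Lib.P183

theorem band_iff {a b : Bool} : band a b = true ↔ (a = true ∧ b = true) := by
  cases a <;> cases b <;> simp [band]

theorem bimp_iff {a b : Bool} : bimp a b = true ↔ (a = true → b = true) := by
  cases a <;> cases b <;> simp [bimp]

theorem bor_iff {a b : Bool} : bor a b = true ↔ (a = true ∨ b = true) := by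
  cases a <;> cases b <;> simp [bor]

theorem beqB_iff {a b : Bool} : beqB a b = true ↔ a = b := by
  cases a <;> cases b <;> simp [beqB]

theorem allB_succ (n : Nat) (f : Nat → Bool) : allB (n+1) f = band (f n) (allB n f) := rfl

theorem allB_iff {n : Nat} {f : Nat → Bool} : allB n f = true ↔ ∀ k, k < n → f k = true := by
  induction n with
  | zero => exact ⟨fun _ k hk => absurd hk (Nat.not_lt_zero k), fun _ => rfl⟩
  | succ n ih =>
    rw [allB_succ, band_iff, ih]
    constructor
    · rintro ⟨h1, h2⟩ k hk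
      rcases Nat.lt_succ_iff_lt_or_eq.1 hk with h | h
      · exact h2 k h
      · exact h ▸ h1
    · intro h
      exact ⟨h n (Nat.lt_succ_self n), fun k hk => h k (Nat.lt_succ_of_lt hk)⟩

theorem nbeq_iff {a b : Nat} : Nat.beq a b = true ↔ a = b :=
  ⟨Nat.eq_of_beq_eq_true, fun h => h ▸ Nat.beq_refl a⟩

theorem nblt_iff {a b : Nat} : Nat.blt a b = true ↔ a < b := by
  simp [Nat.blt_eq]

theorem opX_lt (i x : Nat) : opX i x < 36 := Nat.mod_lt _ (by decide)
theorem opY_lt (i y : Nat) : opY i y < 960 := Nat.mod_lt _ (by decide)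

/-- The carrier of the algebra. -/
abbrev Pt : Type := Fin 36 × Fin 960

def p0 : Pt := (⟨0, by decide⟩, ⟨0, by decide⟩)

/-- The `i`-th basic operation. -/
def opA (i : Nat) (p : Pt) : Pt := (⟨opX i p.1.val, opX_lt _ _⟩, ⟨opY i p.2.val, opY_lt _ _⟩)

def opsA : Fin 10 → Pt → Pt := fun i => opA i.val

abbrev CA : Type := UCon opsA

theorem Pt_ext {p q : Pt} (h1 : p.1.val = q.1.val) (h2 : p.2.val = q.2.val) : p = q :=
  Prod.ext (Fin.ext h1) (Fin.ext h2)

noncomputable def evA (b n : Nat) : Nat → Pt → Pt :=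
  Nat.rec (motive := fun _ => Nat → Pt → Pt) (fun _ p => p)
    (fun _ ih w p => ih (Nat.div w b) (opA (Nat.mod w b) p)) n

theorem evA_zero (b w : Nat) (p : Pt) : evA b 0 w p = p := rfl
theorem evA_succ (b n w : Nat) (p : Pt) :
    evA b (n+1) w p = evA b n (Nat.div w b) (opA (Nat.mod w b) p) := rfl
theorem evX_succ (b n w x : Nat) :
    evX b (n+1) w x = evX b n (Nat.div w b) (opX (Nat.mod w b) x) := rfl
theorem evY_succ (b n w x : Nat) :
    evY b (n+1) w x = evY b n (Nat.div w b) (opY (Nat.mod w b) x) := rfl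

theorem evA_fst (b : Nat) : ∀ (n w : Nat) (p : Pt), (evA b n w p).1.val = evX b n w p.1.val := by
  intro n
  induction n with
  | zero => intro w p; rfl
  | succ n ih => intro w p; rw [evA_succ, evX_succ, ih]; rfl

theorem evA_snd (b : Nat) : ∀ (n w : Nat) (p : Pt), (evA b n w p).2.val = evY b n w p.2.val := by
  intro n
  induction n with
  | zero => intro w p; rfl
  | succ n ih => intro w p; rw [evA_succ, evY_succ, ih]; rfl

/-- `f` preserves every congruence. -/
def Pres (f : Pt → Pt) : Prop := ∀ (θ : CA) (a b : Pt), θ.1 a b → θ.1 (f a) (f b)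

/-- `f` is a bijection which, together with its inverse, preserves every congruence. -/
def Good (f : Pt → Pt) : Prop :=
  ∃ f' : Pt → Pt, Pres f ∧ Pres f' ∧ (∀ a, f' (f a) = a) ∧ (∀ a, f (f' a) = a)

theorem pres_op {i : Nat} (hi : i < 10) : Pres (opA i) :=
  fun θ a b h => θ.2 ⟨i, hi⟩ a b h

theorem good_id : Good (fun p => p) :=
  ⟨fun p => p, fun _ _ _ h => h, fun _ _ _ h => h, fun _ => rfl, fun _ => rfl⟩

theorem good_comp {f g : Pt → Pt} (hf : Good f) (hg : Good g) : Good (fun p => g (f p)) := by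
  obtain ⟨f', h1, h2, h3, h4⟩ := hf
  obtain ⟨g', k1, k2, k3, k4⟩ := hg
  refine ⟨fun p => f' (g' p), fun θ a b h => k1 θ _ _ (h1 θ _ _ h),
    fun θ a b h => h2 θ _ _ (k2 θ _ _ h), fun a => ?_, fun a => ?_⟩
  · show f' (g' (g (f a))) = a
    rw [k3, h3]
  · show g (f (f' (g' a))) = a
    rw [h4, k4]

theorem opA_inv (hinv : chkInv = true) {i : Nat} (hi : i < 10) (p : Pt) :
    opA (invL i) (opA i p) = p := by
  have h := allB_iff.1 hinv i hi
  rw [band_iff, band_iff, band_iff] at h
  obtain ⟨_, _, hx, hy⟩ := h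
  exact Pt_ext (nbeq_iff.1 (allB_iff.1 hx p.1.val p.1.isLt)) (nbeq_iff.1 (allB_iff.1 hy p.2.val p.2.isLt))

theorem invL_lt (hinv : chkInv = true) {i : Nat} (hi : i < 10) : invL i < 10 := by
  have h := allB_iff.1 hinv i hi
  rw [band_iff] at h
  exact nblt_iff.1 h.1

theorem invL_invL (hinv : chkInv = true) {i : Nat} (hi : i < 10) : invL (invL i) = i := by
  have h := allB_iff.1 hinv i hi
  rw [band_iff, band_iff] at h
  exact nbeq_iff.1 h.2.1

theorem good_op (hinv : chkInv = true) {i : Nat} (hi : i < 10) : Good (opA i) := by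
  refine ⟨opA (invL i), pres_op hi, pres_op (invL_lt hinv hi), opA_inv hinv hi, fun a => ?_⟩
  have := opA_inv hinv (invL_lt hinv hi) a
  rwa [invL_invL hinv hi] at this

theorem good_ev (hinv : chkInv = true) {b : Nat} (hb0 : 0 < b) (hb : b ≤ 10) :
    ∀ (n w : Nat), Good (evA b n w) := by
  intro n
  induction n with
  | zero => intro w; exact good_id
  | succ n ih =>
    intro w
    have hl : Nat.mod w b < 10 := lt_of_lt_of_le (Nat.mod_lt _ hb0) hb
    exact good_comp (f := opA (Nat.mod w b)) (g := evA b n (Nat.div w b)) (good_op hinv hl)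
      (ih (Nat.div w b))

theorem lettersIn_succ (M b n w : Nat) :
    lettersIn M b (n+1) w = band (bit M (Nat.mod w b)) (lettersIn M b n (Nat.div w b)) := rfl

/-- If `p0 θ l(p0)` for all letters `l` in the mask `M`, then words over `M` keep the class of `p0`. -/
theorem closure_word (θ : CA) {M b : Nat} (hb0 : 0 < b) (hb : b ≤ 10)
    (hM : ∀ l, l < 10 → bit M l = true → θ.1 p0 (opA l p0)) :
    ∀ (n w : Nat) (u : Pt), lettersIn M b n w = true → θ.1 p0 u → θ.1 p0 (evA b n w u) := by
  intro n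
  induction n with
  | zero => intro w u _ h; exact h
  | succ n ih =>
    intro w u hl hu
    rw [lettersIn_succ, band_iff] at hl
    have hlt : Nat.mod w b < 10 := lt_of_lt_of_le (Nat.mod_lt _ hb0) hb
    rw [evA_succ]
    refine ih _ _ hl.2 ?_
    exact θ.1.trans' (hM _ hlt hl.1) (pres_op hlt θ _ _ hu)

end Vale.Agent.Lib.P183
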