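import Vale.Agent.Lib.P183.Check

namespace Vale.Agent.Lib.P183

theorem chkRep0_ok : chkRepQ 50 0 = true := by decide +kernel

theorem chkRep1_ok : chkRepQ 50 1 = true := by decide +kernel

theorem chkRep2_ok : chkRepQ 50 2 = true := by decide +kernel

theorem chkRep3_ok : chkRepQ 50 3 = true := by decide +kernel

theorem chkRep4_ok : chkRepQ 50 4 = true := by decide +kernel

theorem chkRep5_ok : chkRepQ 50 5 = true := by decide +kernel

theorem chkRep6_ok : chkRepQ 50 6 = true := by decide +kernel

theorem chkRep7_ok : chkRepQ 50 7 = true := by decide +kernel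

theorem chkRep8_ok : chkRepQ 50 8 = true := by decide +kernel

theorem chkRep9_ok : chkRepQ 50 9 = true := by decide +kernel

theorem chkRep10_ok : chkRepQ 50 10 = true := by decide +kernel

theorem chkRep11_ok : chkRepQ 50 11 = true := by decide +kernel

theorem chkRep12_ok : chkRepQ 50 12 = true := by decide +kernel

theorem chkRep13_ok : chkRepQ 50 13 = true := by decide +kernel

theorem chkRep14_ok : chkRepQ 50 14 = true := by decide +kernel

theorem chkRep15_ok : chkRepQ 50 15 = true := by decide +kernel

theorem chkRep16_ok : chkRepQ 47 16 = true := by decide +kernel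

end Vale.Agent.Lib.P183
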