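import Vale.Agent.Lib.P183.Check

namespace Vale.Agent.Lib.P183

theorem chkInv_ok : chkInv = true := by decide +kernel

theorem chkFixP0_ok : chkFixP0 = true := by decide +kernel

theorem chkFix_ok : chkFix = true := by decide +kernel

theorem chkMb_ok : chkMb = true := by decide +kernel

theorem chkWit_ok : chkWit = true := by decide +kernel

theorem chkOrd_ok : chkOrd = true := by decide +kernel

end Vale.Agent.Lib.P183
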