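import Vale.Agent.Lib.P183.Logic2
import Vale.Agent.Lib.P183.Bridge

/-! The interval version: the ten operations are permutations; the group they generate is
transitive, and the overgroups of a point stabilizer form the seven-element poset. -/

namespace Vale.Agent.Lib.P183

/-- The `i`-th operation as a permutation. -/
noncomputable def sigA (i : Fin 10) : Equiv.Perm Pt where
  toFun := opA i.val
  invFun := opA (invL i.val)
  left_inv := opA_inv chkInv_ok i.isLt
  right_inv := fun a => by
    have := opA_inv chkInv_ok (invL_lt chkInv_ok i.isLt) a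
    rwa [invL_invL chkInv_ok i.isLt] at this

theorem ev_mem_closure : ∀ (n w : Nat), ∃ g ∈ Subgroup.closure (Set.range sigA),
    ∀ p, g p = evA 10 n w p := by
  intro n
  induction n with
  | zero => intro w; exact ⟨1, Subgroup.one_mem _, fun p => rfl⟩
  | succ n ih =>
    intro w
    obtain ⟨g, hg, h⟩ := ih (Nat.div w 10)
    have hl : Nat.mod w 10 < 10 := Nat.mod_lt _ (by decide)
    refine ⟨g * sigA ⟨Nat.mod w 10, hl⟩,
      Subgroup.mul_mem _ hg (Subgroup.subset_closure ⟨_, rfl⟩), fun p => ?_⟩
    rw [Equiv.Perm.mul_apply, h, evA_succ]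
    rfl

theorem trans_closure (a : Pt) : ∃ g ∈ Subgroup.closure (Set.range sigA), g p0 = a := by
  obtain ⟨n, w, e, _⟩ := exists_word a
  obtain ⟨g, hg, h⟩ := ev_mem_closure n w
  exact ⟨g, hg, by rw [h, e]⟩

/-- The interval above the point stabilizer is the seven-element poset given by `leB`. -/
theorem main_interval : ∃ f : Fin 7 →
      Set.Ici (MulAction.stabilizer (Subgroup.closure (Set.range sigA)) p0),
    Function.Bijective f ∧ ∀ i j : Fin 7, f i ≤ f j ↔ leB i.val j.val = true := by
  obtain ⟨f, hf, hle⟩ := main_leB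
  obtain ⟨e⟩ := ucon_orderIso_interval sigA p0 trans_closure
  have e' : CA ≃o Set.Ici (MulAction.stabilizer (Subgroup.closure (Set.range sigA)) p0) := e
  refine ⟨fun i => e' (f i), e'.bijective.comp hf, fun i j => ?_⟩
  rw [e'.le_iff_le, hle]

end Vale.Agent.Lib.P183
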