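import Vale.Agent.Lib.P183.Facts

/-! Soundness of the certificates: the congruences of the algebra are exactly seven. -/

namespace Vale.Agent.Lib.P183

theorem ucon_le_iff {A ι : Type} {ops : ι → A → A} {θ₁ θ₂ : UCon ops} :
    θ₁ ≤ θ₂ ↔ ∀ a b, θ₁.1 a b → θ₂.1 a b :=
  ⟨fun h _ _ hab => h hab, fun h a b hab => h a b hab⟩

noncomputable def keyF (t : Nat) (p : Pt) : Nat × Nat := (key1 t p.1.val, key2 t p.1.val p.2.val)

theorem relB_iff (t : Nat) (p q : Pt) :
    relB t p.1.val p.2.val q.1.val q.2.val = true ↔ keyF t p = keyF t q := by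
  unfold relB keyF
  rw [band_iff, nbeq_iff, nbeq_iff, Prod.mk.injEq]

theorem key1_ge (n x : Nat) : key1 (n+4) x = 0 := by
  have : Nat.ble (n+4) 3 = false := by
    rw [← Bool.not_eq_true, Nat.ble_eq]; omega
  unfold key1; rw [this]

theorem opA_fst (i : Nat) (p : Pt) : (opA i p).1.val = opX i p.1.val := rfl
theorem opA_snd (i : Nat) (p : Pt) : (opA i p).2.val = opY i p.2.val := rfl

theorem key_compat (t i : Nat) (hi : i < 10) (p q : Pt) (h : keyF t p = keyF t q) :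
    keyF t (opA i p) = keyF t (opA i q) := by
  unfold keyF at h ⊢
  rw [Prod.mk.injEq] at h ⊢
  obtain ⟨h1, h2⟩ := h
  rw [opA_fst, opA_fst, opA_snd, opA_snd]
  have cD := fun r : Pt => compatD i r.1.val r.2.val hi r.1.isLt r.2.isLt
  have cA := fun r : Pt => compatA i r.1.val r.2.val hi r.1.isLt r.2.isLt
  match t, h1, h2 with
  | 0, h1, h2 =>
    have h1 : p.1.val = q.1.val := h1
    have h2 : p.2.val = q.2.val := h2
    rw [h1, h2]
    exact ⟨rfl, rfl⟩
  | 1, h1, h2 =>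
    have h1 : p.1.val = q.1.val := h1
    have h2 : kA p.1.val p.2.val = kA q.1.val q.2.val := h2
    refine ⟨?_, ?_⟩
    · rw [h1]
    · show kA _ _ = kA _ _
      rw [cA p, cA q, h2, h1]
  | 2, h1, h2 =>
    have h1 : p.1.val = q.1.val := h1
    have h2 : kD p.1.val p.2.val = kD q.1.val q.2.val := h2
    refine ⟨?_, ?_⟩
    · rw [h1]
    · show kD _ _ = kD _ _
      rw [cD p, cD q, h2]
  | 3, h1, h2 =>
    have h1 : p.1.val = q.1.val := h1
    refine ⟨?_, rfl⟩
    rw [h1]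
  | 4, h1, h2 =>
    have h2 : kD p.1.val p.2.val = kD q.1.val q.2.val := h2
    refine ⟨rfl, ?_⟩
    show kD _ _ = kD _ _
    rw [cD p, cD q, h2]
  | 5, h1, h2 =>
    have h2 : p.2.val = q.2.val := h2
    refine ⟨rfl, ?_⟩
    show opY _ _ = opY _ _
    rw [h2]
  | (n+6), h1, h2 =>
    refine ⟨?_, rfl⟩
    rw [key1_ge (n+2), key1_ge (n+2)]

/-- The seven congruences (`t < 7`). -/
noncomputable def tau (t : Nat) : CA :=
  ⟨Setoid.ker (keyF t), fun i a b h => key_compat t i.val i.isLt a b h⟩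

theorem tau_iff (t : Nat) (p q : Pt) :
    (tau t).1 p q ↔ relB t p.1.val p.2.val q.1.val q.2.val = true :=
  (relB_iff t p q).symm

noncomputable def rP (t : Nat) : Pt :=
  Nat.rec (motive := fun _ => Pt) p0 (fun k _ => opA (Nat.add k 4) p0) t

theorem rP_fst (t : Nat) : (rP t).1.val = rX t := by cases t <;> rfl
theorem rP_snd (t : Nat) : (rP t).2.val = rY t := by cases t <;> rfl

theorem fixP0 {l : Nat} (hl : l < 4) : opA l p0 = p0 := by
  have h := allB_iff.1 chkFixP0_ok l hl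
  rw [band_iff, nbeq_iff, nbeq_iff] at h
  exact Pt_ext h.1 h.2

theorem rel_letter (θ : CA) {t l : Nat} (h : θ.1 p0 (rP t)) (hl : l = Nat.add t 3) :
    θ.1 p0 (opA l p0) := by
  cases t with
  | zero => rw [hl]; exact (fixP0 (show Nat.add 0 3 < 4 by decide)).symm ▸ θ.1.refl' p0
  | succ k =>
    have : l = Nat.add k 4 := hl.trans (show k + 1 + 3 = k + 4 by omega)
    rw [this]; exact h

theorem maskB (θ : CA) {t : Nat} (ht : t < 7) (h : θ.1 p0 (rP t)) :
    ∀ l, l < 10 → bit (MBf t) l = true → θ.1 p0 (opA l p0) := by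
  intro l hl hb
  have h1 := allB_iff.1 (allB_iff.1 chkMb_ok t ht) l hl
  rw [bimp_iff, bor_iff, band_iff, nblt_iff, nbeq_iff] at h1
  rcases h1 hb with h2 | ⟨_, h3⟩
  · exact (fixP0 h2).symm ▸ θ.1.refl' p0
  · exact rel_letter θ h h3

theorem maskM (θ : CA) {t : Nat} (ht : t < 7) (h : θ.1 p0 (rP t)) :
    ∀ l, l < 10 → bit (MMf t) l = true → θ.1 p0 (opA l p0) := by
  intro l hl hb
  have h1 := allB_iff.1 (allB_iff.1 chkFix_ok t ht) l hl
  unfold chkFixRec at h1
  rw [bimp_iff, bor_iff, bor_iff, band_iff, band_iff, nblt_iff, nbeq_iff, nbeq_iff, nbeq_iff] at h1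
  rcases h1 hb with h2 | h2 | ⟨h2, h3, h4⟩
  · exact (fixP0 h2).symm ▸ θ.1.refl' p0
  · exact rel_letter θ h h2
  · have h5 := closure_word θ (by decide) (by decide) (maskB θ ht h) _ _ p0 h2 (θ.1.refl' p0)
    have e : evA 10 _ _ p0 = opA l p0 :=
      Pt_ext (by rw [evA_fst]; exact h3) (by rw [evA_snd]; exact h4)
    rwa [e] at h5

theorem exists_word (v : Pt) : ∃ n w, evA 10 n w p0 = v ∧
    ∀ t, t < 7 → (tau t).1 p0 v → lettersIn (MMf t) 10 n w = true := by
  obtain ⟨r, hr⟩ := pts_ok v.1.val v.2.val v.1.isLt v.2.isLt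
  unfold chkRec at hr
  rw [band_iff] at hr
  have hw := hr.1
  unfold chkW at hw
  rw [band_iff, band_iff, nbeq_iff, nbeq_iff] at hw
  obtain ⟨e1, e2, h3⟩ := hw
  refine ⟨_, _, Pt_ext (by rw [evA_fst]; exact e1) (by rw [evA_snd]; exact e2), ?_⟩
  intro t ht hv
  have h4 := allB_iff.1 h3 t ht
  rw [bimp_iff] at h4
  exact h4 ((tau_iff t p0 v).1 hv)

theorem stepA0 (θ : CA) {t : Nat} (ht : t < 7) (h : θ.1 p0 (rP t)) (v : Pt)
    (hv : (tau t).1 p0 v) : θ.1 p0 v := by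
  obtain ⟨n, w, e, hl⟩ := exists_word v
  have h5 := closure_word θ (by decide) (by decide) (maskM θ ht h) n w p0 (hl t ht hv)
    (θ.1.refl' p0)
  rwa [e] at h5

theorem exists_good (u : Pt) : ∃ f, Good f ∧ f p0 = u := by
  obtain ⟨n, w, e, _⟩ := exists_word u
  exact ⟨evA 10 n w, good_ev chkInv_ok (by decide) (by decide) n w, e⟩

/-- (A): if `p0 θ r_t` then `τ_t ≤ θ`. -/
theorem stepA (θ : CA) {t : Nat} (ht : t < 7) (h : θ.1 p0 (rP t)) : tau t ≤ θ := by
  rw [ucon_le_iff]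
  intro u v huv
  obtain ⟨f, ⟨f', h1, h2, h3, h4⟩, e⟩ := exists_good u
  have k1 : (tau t).1 (f' u) (f' v) := h2 (tau t) u v huv
  have e' : f' u = p0 := by rw [← e, h3]
  rw [e'] at k1
  have k2 := h1 θ _ _ (stepA0 θ ht h _ k1)
  rwa [e, h4] at k2

end Vale.Agent.Lib.P183
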