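import Vale.Agent.Lib.P183.Logic

/-! Classification of the congruences. -/

namespace Vale.Agent.Lib.P183

theorem evA4_p0 : ∀ (n w : Nat), evA 4 n w p0 = p0 := by
  intro n
  induction n with
  | zero => intro w; rfl
  | succ n ih =>
    intro w
    have hl : Nat.mod w 4 < 4 := Nat.mod_lt _ (by decide)
    rw [evA_succ, fixP0 hl, ih]

theorem step_sound (θ : CA) (p : Pt) (hp : θ.1 p0 p) (kind n w : Nat)
    (h : stepOK kind n w p.1.val p.2.val = true) : θ.1 p0 (evA 10 n w p0) := by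
  obtain ⟨_, g1, _, _, _⟩ := good_ev chkInv_ok (b := 10) (by decide) (by decide) n w
  unfold stepOK at h
  split at h
  · rw [band_iff, nbeq_iff, nbeq_iff] at h
    have e : evA 10 n w p0 = p0 := Pt_ext (by rw [evA_fst]; exact h.1) (by rw [evA_snd]; exact h.2)
    exact e.symm ▸ θ.1.refl' p0
  · rw [band_iff, nbeq_iff, nbeq_iff] at h
    have e : evA 10 n w p0 = p := Pt_ext (by rw [evA_fst]; exact h.1) (by rw [evA_snd]; exact h.2)
    exact e.symm ▸ hp
  · rw [band_iff, nbeq_iff, nbeq_iff] at h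
    have e : evA 10 n w p = p0 := Pt_ext (by rw [evA_fst]; exact h.1) (by rw [evA_snd]; exact h.2)
    have k := g1 θ _ _ hp
    rw [e] at k
    exact θ.1.symm' k

theorem pathB_succ (px py tx ty m bits ux uy : Nat) :
    pathB px py tx ty (m+1) bits ux uy =
      band (stepOK (Nat.land bits 3) (Nat.land (Nat.shiftRight bits 2) 15)
              (Nat.land (Nat.shiftRight bits 6) 4398046511103) px py)
        (pathB px py tx ty m (Nat.shiftRight bits 48)
          (evX 10 (Nat.land (Nat.shiftRight bits 2) 15)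
              (Nat.land (Nat.shiftRight bits 6) 4398046511103) ux)
          (evY 10 (Nat.land (Nat.shiftRight bits 2) 15)
              (Nat.land (Nat.shiftRight bits 6) 4398046511103) uy)) := rfl

theorem pathB_zero (px py tx ty bits ux uy : Nat) :
    pathB px py tx ty 0 bits ux uy = band (Nat.beq ux tx) (Nat.beq uy ty) := rfl

theorem path_sound (θ : CA) (p : Pt) (hp : θ.1 p0 p) (v : Pt) :
    ∀ (m bits : Nat) (u : Pt),
      pathB p.1.val p.2.val v.1.val v.2.val m bits u.1.val u.2.val = true →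
      θ.1 p0 u → θ.1 p0 v := by
  intro m
  induction m with
  | zero =>
    intro bits u h hu
    rw [pathB_zero, band_iff, nbeq_iff, nbeq_iff] at h
    exact (Pt_ext h.1 h.2 : u = v) ▸ hu
  | succ m ih =>
    intro bits u h hu
    rw [pathB_succ, band_iff] at h
    obtain ⟨_, g1, _, _, _⟩ := good_ev chkInv_ok (b := 10) (by decide) (by decide)
      (Nat.land (Nat.shiftRight bits 2) 15) (Nat.land (Nat.shiftRight bits 6) 4398046511103)
    have k1 := step_sound θ p hp _ _ _ h.1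
    have k2 := θ.1.trans' k1 (g1 θ _ _ hu)
    refine ih (Nat.shiftRight bits 48) _ ?_ k2
    rw [evA_fst, evA_snd]
    exact h.2

/-- (B): every point `θ`-related to `p0` is `τ_t`-related to `p0` for some `t` with `p0 θ r_t`. -/
theorem stepB (θ : CA) (p : Pt) (h : θ.1 p0 p) :
    ∃ t, t < 7 ∧ θ.1 p0 (rP t) ∧ (tau t).1 p0 p := by
  obtain ⟨r, hr⟩ := pts_ok p.1.val p.2.val p.1.isLt p.2.isLt
  unfold chkRec at hr
  rw [band_iff] at hr
  have hh := hr.2
  unfold chkH at hh
  rw [band_iff, band_iff, nblt_iff, nbeq_iff, nbeq_iff] at hh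
  obtain ⟨hidx, e1, e2⟩ := hh
  generalize Nat.land (Nat.shiftRight r 32) 1023 = idx at hidx e1 e2
  generalize Nat.land (Nat.shiftRight r 42) 7 = n at e1 e2
  generalize Nat.shiftRight r 45 = w at e1 e2
  obtain ⟨f', g1, g2, g3, _⟩ := good_ev chkInv_ok (b := 4) (by decide) (by decide) n w
  have hq : θ.1 p0 (evA 4 n w p) := by
    have := g1 θ _ _ h
    rwa [evA4_p0] at this
  have q1 : (evA 4 n w p).1.val = repX idx := by rw [evA_fst]; exact e1
  have q2 : (evA 4 n w p).2.val = repY idx := by rw [evA_snd]; exact e2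
  have hc := reps_ok idx hidx
  unfold chkRep chkRepRec at hc
  rw [band_iff, band_iff, nblt_iff, ← q1, ← q2] at hc
  obtain ⟨ht, hrel, hpath⟩ := hc
  generalize Nat.mod (Nat.shiftRight RC (Nat.mul 272 idx)) (Nat.pow 2 272) = rc at ht hrel hpath
  refine ⟨Nat.land rc 7, ht, ?_, ?_⟩
  · rw [← rP_fst, ← rP_snd] at hpath
    exact path_sound θ _ hq (rP (Nat.land rc 7)) _ _ p0 hpath (θ.1.refl' p0)
  · have k := g2 (tau (Nat.land rc 7)) p0 _ ((tau_iff _ p0 _).2 hrel)
    have a1 : f' p0 = p0 := by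
      have := g3 p0
      rwa [evA4_p0] at this
    rwa [a1, g3] at k

theorem ord_tab {s t : Nat} (hs : s < 7) (ht : t < 7) :
    (tau t).1 p0 (rP s) ↔ leB s t = true := by
  have h := allB_iff.1 (allB_iff.1 chkOrd_ok s hs) t ht
  rw [beqB_iff] at h
  rw [tau_iff, rP_fst, rP_snd, ← h]
  rfl

theorem down (θ : CA) {s t : Nat} (hs : s < 7) (ht : t < 7) (hle : leB s t = true)
    (h : θ.1 p0 (rP t)) : θ.1 p0 (rP s) :=
  stepA0 θ ht h _ ((ord_tab hs ht).2 hle)

theorem finJoinLt : allB 7 (fun s => allB 7 (fun t => Nat.blt (joinN s t) 7)) = true := by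
  decide +kernel

theorem finJoinLe : allB 7 (fun s => allB 7 (fun t =>
    band (leB s (joinN s t)) (leB t (joinN s t)))) = true := by
  decide +kernel

theorem finTrans : allB 7 (fun s => allB 7 (fun t => allB 7 (fun u =>
    bimp (leB s t) (bimp (leB t u) (leB s u))))) = true := by
  decide +kernel

theorem finRefl : allB 7 (fun s => leB s s) = true := by
  decide +kernel

theorem finAntisymm : allB 7 (fun s => allB 7 (fun t =>
    bimp (leB s t) (bimp (leB t s) (Nat.beq s t)))) = true := by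
  decide +kernel

theorem joinS (θ : CA) {s t : Nat} (hs : s < 7) (ht : t < 7) (h1 : θ.1 p0 (rP s))
    (h2 : θ.1 p0 (rP t)) : θ.1 p0 (rP (joinN s t)) := by
  have h := allB_iff.1 (allB_iff.1 chkWit_ok s hs) t ht
  unfold chkWitRec at h
  rw [band_iff, band_iff, band_iff, band_iff, band_iff, band_iff, nblt_iff, nblt_iff, nblt_iff,
    nblt_iff] at h
  obtain ⟨b1, b2, b3, b4, r1, r2, r3⟩ := h
  have hj : joinN s t < 7 := nblt_iff.1 (allB_iff.1 (allB_iff.1 finJoinLt s hs) t ht)
  let q : Pt := (⟨witQX s t, b1⟩, ⟨witQY s t, b2⟩)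
  let r : Pt := (⟨witRX s t, b3⟩, ⟨witRY s t, b4⟩)
  have k1 : θ.1 p0 q := stepA0 θ hs h1 q ((tau_iff s p0 q).2 r1)
  have k2 : θ.1 q r := (ucon_le_iff.1 (stepA θ ht h2)) q r ((tau_iff t q r).2 r2)
  obtain ⟨u, hu, k3, k4⟩ := stepB θ r (θ.1.trans' k1 k2)
  have k5 := allB_iff.1 r3 u hu
  rw [bimp_iff] at k5
  exact down θ hj hu (k5 ((tau_iff u p0 r).1 k4)) k3

theorem exists_max (θ : CA) : ∀ k, k ≤ 7 →
    ∃ m, m < 7 ∧ θ.1 p0 (rP m) ∧ ∀ t, t < k → θ.1 p0 (rP t) → leB t m = true := by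
  intro k
  induction k with
  | zero => intro _; exact ⟨0, by decide, θ.1.refl' p0, fun t ht => absurd ht (Nat.not_lt_zero t)⟩
  | succ k ih =>
    intro hk
    obtain ⟨m, hm, hS, hall⟩ := ih (Nat.le_of_succ_le hk)
    have hk7 : k < 7 := hk
    by_cases hSk : θ.1 p0 (rP k)
    · have hj : joinN m k < 7 := nblt_iff.1 (allB_iff.1 (allB_iff.1 finJoinLt m hm) k hk7)
      have hle := allB_iff.1 (allB_iff.1 finJoinLe m hm) k hk7
      rw [band_iff] at hle
      refine ⟨joinN m k, hj, joinS θ hm hk7 hS hSk, ?_⟩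
      intro t ht hSt
      rcases Nat.lt_succ_iff_lt_or_eq.1 ht with h | h
      · have htr := allB_iff.1 (allB_iff.1 (allB_iff.1 finTrans t (lt_trans h hk7)) m hm) _ hj
        rw [bimp_iff, bimp_iff] at htr
        exact htr (hall t h hSt) hle.1
      · rw [h]; exact hle.2
    · refine ⟨m, hm, hS, ?_⟩
      intro t ht hSt
      rcases Nat.lt_succ_iff_lt_or_eq.1 ht with h | h
      · exact hall t h hSt
      · exact absurd (h ▸ hSt) hSk

theorem tau_le_iff {s t : Nat} (hs : s < 7) (ht : t < 7) : tau s ≤ tau t ↔ leB s t = true := by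
  constructor
  · intro h
    have h1 : (tau s).1 p0 (rP s) := (ord_tab hs hs).2 (allB_iff.1 finRefl s hs)
    exact (ord_tab hs ht).1 (ucon_le_iff.1 h _ _ h1)
  · intro h
    exact stepA (tau t) hs ((ord_tab hs ht).2 h)

theorem classify (θ : CA) : ∃ m, m < 7 ∧ θ = tau m := by
  obtain ⟨m, hm, hS, hall⟩ := exists_max θ 7 (le_refl 7)
  refine ⟨m, hm, le_antisymm ?_ (stepA θ hm hS)⟩
  rw [ucon_le_iff]
  intro u v huv
  obtain ⟨f, ⟨f', h1, h2, h3, h4⟩, e⟩ := exists_good u
  have k1 : θ.1 (f' u) (f' v) := h2 θ u v huv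
  have e' : f' u = p0 := by rw [← e, h3]
  rw [e'] at k1
  obtain ⟨t, ht, k2, k3⟩ := stepB θ _ k1
  have k4 : (tau m).1 p0 (f' v) :=
    ucon_le_iff.1 ((tau_le_iff ht hm).2 (hall t ht k2)) _ _ k3
  have k5 := h1 (tau m) _ _ k4
  rwa [e, h4] at k5

/-- The congruence lattice of the algebra is the seven-element poset given by `leB`. -/
theorem main_leB : ∃ f : Fin 7 → CA, Function.Bijective f ∧
    ∀ i j : Fin 7, f i ≤ f j ↔ leB i.val j.val = true := by
  refine ⟨fun i => tau i.val, ⟨?_, ?_⟩, fun i j => tau_le_iff i.isLt j.isLt⟩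
  · intro i j hij
    have hij : tau i.val = tau j.val := hij
    have h1 := (tau_le_iff i.isLt j.isLt).1 (le_of_eq hij)
    have h2 := (tau_le_iff j.isLt i.isLt).1 (le_of_eq hij.symm)
    have h := allB_iff.1 (allB_iff.1 finAntisymm i.val i.isLt) j.val j.isLt
    rw [bimp_iff, bimp_iff, nbeq_iff] at h
    exact Fin.ext (h h1 h2)
  · intro θ
    obtain ⟨m, hm, e⟩ := classify θ
    exact ⟨⟨m, hm⟩, e.symm⟩

end Vale.Agent.Lib.P183
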